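import Mathlib

/-!
# The pinwheel lattice lemma (row 211, package B1)

For real `a`, `b` with `0 ≤ a * b < 1`, the unit squares with lower-left corners at the lattice
points `(i + b j, j + a i)`, `i j : ℤ`, cover the plane.
-/

set_option autoImplicit false

namespace Crest.Agent.Helper3

/-- **Pinwheel lattice lemma.** If `0 ≤ a * b < 1` then every point `(X, Y)` of the plane lies in
the half-open unit square with corner `(i + b j, j + a i)` for some integers `i`, `j`. -/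
theorem pinwheel_cover (a b : ℝ) (hab : 0 ≤ a * b) (hab1 : a * b < 1) (X Y : ℝ) :
    ∃ i j : ℤ, 0 ≤ X - (i + b * j) ∧ X - (i + b * j) < 1 ∧
      0 ≤ Y - (j + a * i) ∧ Y - (j + a * i) < 1 := by
  classical
  -- the column function
  set φ : ℤ → ℝ := fun j => (j : ℝ) + a * (⌊X - b * j⌋ : ℝ) with hφ
  -- steps are at most one
  have hstep : ∀ j : ℤ, φ (j + 1) ≤ φ j + 1 := by
    intro j
    have key : a * ((⌊X - b * ((j + 1 : ℤ) : ℝ)⌋ : ℝ) - (⌊X - b * (j : ℝ)⌋ : ℝ)) ≤ 0 := by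
      rcases mul_nonneg_iff.mp hab with ⟨ha, hb⟩ | ⟨ha, hb⟩
      · have hle : ⌊X - b * ((j + 1 : ℤ) : ℝ)⌋ ≤ ⌊X - b * (j : ℝ)⌋ := by
          apply Int.floor_le_floor
          push_cast
          nlinarith
        have hle' : (⌊X - b * ((j + 1 : ℤ) : ℝ)⌋ : ℝ) ≤ (⌊X - b * (j : ℝ)⌋ : ℝ) := by
          exact_mod_cast hle
        nlinarith
      · have hle : ⌊X - b * (j : ℝ)⌋ ≤ ⌊X - b * ((j + 1 : ℤ) : ℝ)⌋ := by
          apply Int.floor_le_floor
          push_cast
          nlinarith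
        have hle' : (⌊X - b * (j : ℝ)⌋ : ℝ) ≤ (⌊X - b * ((j + 1 : ℤ) : ℝ)⌋ : ℝ) := by
          exact_mod_cast hle
        nlinarith
    simp only [hφ]
    push_cast at key ⊢
    nlinarith
  -- two-sided linear bounds for φ
  have hfl : ∀ z : ℝ, a * z - |a| ≤ a * (⌊z⌋ : ℝ) ∧ a * (⌊z⌋ : ℝ) ≤ a * z + |a| := by
    intro z
    have h1 : (⌊z⌋ : ℝ) ≤ z := Int.floor_le z
    have h2 : z < (⌊z⌋ : ℝ) + 1 := Int.lt_floor_add_one z
    rcases le_total 0 a with ha | ha
    · rw [abs_of_nonneg ha]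
      constructor <;> nlinarith
    · rw [abs_of_nonpos ha]
      constructor <;> nlinarith
  have hpos : 0 < 1 - a * b := by linarith
  have hlow : ∀ j : ℤ, (1 - a * b) * j + a * X - |a| ≤ φ j := by
    intro j
    have := (hfl (X - b * j)).1
    simp only [hφ]
    nlinarith
  have hup : ∀ j : ℤ, φ j ≤ (1 - a * b) * j + a * X + |a| := by
    intro j
    have := (hfl (X - b * j)).2
    simp only [hφ]
    nlinarith
  -- the greatest column with φ j ≤ Y
  have hbdd : ∃ B : ℤ, ∀ z : ℤ, φ z ≤ Y → z ≤ B := by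
    refine ⟨⌈(Y - a * X + |a|) / (1 - a * b)⌉, fun z hz => ?_⟩
    have h1 : (1 - a * b) * z ≤ Y - a * X + |a| := by
      have := hlow z
      linarith
    have h2 : (z : ℝ) ≤ (Y - a * X + |a|) / (1 - a * b) := by
      rw [le_div_iff₀ hpos]
      linarith
    have h3 : (z : ℝ) ≤ (⌈(Y - a * X + |a|) / (1 - a * b)⌉ : ℝ) := h2.trans (Int.le_ceil _)
    exact_mod_cast h3
  have hinh : ∃ z : ℤ, φ z ≤ Y := by
    refine ⟨⌊(Y - a * X - |a|) / (1 - a * b)⌋, ?_⟩
    have h1 : (⌊(Y - a * X - |a|) / (1 - a * b)⌋ : ℝ) ≤ (Y - a * X - |a|) / (1 - a * b) :=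
      Int.floor_le _
    have h2 : (1 - a * b) * (⌊(Y - a * X - |a|) / (1 - a * b)⌋ : ℝ) ≤ Y - a * X - |a| := by
      rw [le_div_iff₀ hpos] at h1
      linarith
    have := hup ⌊(Y - a * X - |a|) / (1 - a * b)⌋
    linarith
  obtain ⟨j, hj, hjmax⟩ := Int.exists_greatest_of_bdd hbdd hinh
  have hj1 : Y < φ (j + 1) := by
    by_contra hcon
    have := hjmax (j + 1) (not_lt.mp hcon)
    omega
  have hj2 := hstep j
  refine ⟨⌊X - b * j⌋, j, ?_, ?_, ?_, ?_⟩
  · have := Int.floor_le (X - b * j)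
    linarith
  · have := Int.lt_floor_add_one (X - b * j)
    linarith
  · simp only [hφ] at hj
    linarith
  · simp only [hφ] at hj1 hj2 hj
    linarith

end Crest.Agent.Helper3
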