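import Mathlib
import Crest.Agent.Helper3.Pinwheel

/-!
# The local patch lemma for the planar sheared-cylinder covering (row 211, package B2)

For a trace-free linear map `A` of the plane with `-1/L² < det A ≤ 0` there is an orthonormal frame
`b` in which `A` has zero diagonal.  The squares of side `δ` of the lattice spanned by `δ • b 0`,
`δ • b 1`, moved rigidly with the linear velocities `v₀ + A (corner - p₀)`, cover the plane at every
time `|s| ≤ L` (pinwheel lemma); enlarged by the factor `1 + 2η` they also absorb an error of size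
`η δ`.
-/

set_option autoImplicit false

namespace Crest.Agent.Helper3

local notation "E2" => EuclideanSpace ℝ (Fin 2)

/-- a vector of the plane in terms of the standard basis vectors -/
theorem e2_decomp (z : E2) :
    z = z 0 • (EuclideanSpace.single (0 : Fin 2) (1 : ℝ)) + z 1 • EuclideanSpace.single (1 : Fin 2) (1 : ℝ) := by
  ext k
  fin_cases k <;> simp

theorem apply_coords (A : E2 →L[ℝ] E2) (z : E2) :
    A z = z 0 • A (EuclideanSpace.single (0 : Fin 2) (1 : ℝ)) + z 1 • A (EuclideanSpace.single (1 : Fin 2) (1 : ℝ)) := by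
  conv_lhs => rw [e2_decomp z]
  simp only [map_add, map_smul]

theorem trace_coords (A : E2 →L[ℝ] E2) :
    LinearMap.trace ℝ E2 A.toLinearMap =
      A (EuclideanSpace.single (0 : Fin 2) (1 : ℝ)) 0 + A (EuclideanSpace.single (1 : Fin 2) (1 : ℝ)) 1 := by
  rw [LinearMap.trace_eq_matrix_trace ℝ (EuclideanSpace.basisFun (Fin 2) ℝ).toBasis, Matrix.trace_fin_two]
  simp [LinearMap.toMatrix_apply]

theorem det_coords (A : E2 →L[ℝ] E2) :
    LinearMap.det A.toLinearMap =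
      A (EuclideanSpace.single (0 : Fin 2) (1 : ℝ)) 0 * A (EuclideanSpace.single (1 : Fin 2) (1 : ℝ)) 1 -
      A (EuclideanSpace.single (1 : Fin 2) (1 : ℝ)) 0 * A (EuclideanSpace.single (0 : Fin 2) (1 : ℝ)) 1 := by
  rw [← LinearMap.det_toMatrix (EuclideanSpace.basisFun (Fin 2) ℝ).toBasis, Matrix.det_fin_two]
  simp [LinearMap.toMatrix_apply]


theorem inner_coords (x y : E2) : inner ℝ x y = x 0 * y 0 + x 1 * y 1 := by
  simp [PiLp.inner_apply, Fin.sum_univ_two]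
  ring

theorem inner_vec2 (a b c d : ℝ) : inner ℝ (!₂[a, b] : E2) !₂[c, d] = a * c + b * d := by
  rw [inner_coords]
  simp

theorem trace_frame (A : E2 →L[ℝ] E2) (b : OrthonormalBasis (Fin 2) ℝ E2) :
    LinearMap.trace ℝ E2 A.toLinearMap = inner ℝ (b 0) (A (b 0)) + inner ℝ (b 1) (A (b 1)) := by
  rw [LinearMap.trace_eq_matrix_trace ℝ b.toBasis, Matrix.trace_fin_two]
  simp [LinearMap.toMatrix_apply, OrthonormalBasis.repr_apply_apply]

theorem det_frame (A : E2 →L[ℝ] E2) (b : OrthonormalBasis (Fin 2) ℝ E2) :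
    LinearMap.det A.toLinearMap =
      inner ℝ (b 0) (A (b 0)) * inner ℝ (b 1) (A (b 1)) - inner ℝ (b 0) (A (b 1)) * inner ℝ (b 1) (A (b 0)) := by
  rw [← LinearMap.det_toMatrix b.toBasis, Matrix.det_fin_two]
  simp [LinearMap.toMatrix_apply, OrthonormalBasis.repr_apply_apply]

/-- a trace-free quadratic form vanishes in some direction -/
theorem exists_angle (m00 m01 m10 : ℝ) :
    ∃ c s : ℝ, c ^ 2 + s ^ 2 = 1 ∧ m00 * (c ^ 2 - s ^ 2) + (m01 + m10) * c * s = 0 := by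
  set q : ℝ → ℝ := fun t =>
    m00 * (Real.cos t ^ 2 - Real.sin t ^ 2) + (m01 + m10) * Real.cos t * Real.sin t with hq
  have hcont : Continuous q := by
    simp only [hq]
    fun_prop
  have h0 : q 0 = m00 := by simp [hq]
  have h1 : q (Real.pi / 2) = -m00 := by simp [hq]
  have hpi : (0 : ℝ) ≤ Real.pi / 2 := by positivity
  have : ∃ t, q t = 0 := by
    rcases le_total 0 m00 with hm | hm
    · have := intermediate_value_Icc' hpi hcont.continuousOn
      rw [h0, h1] at this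
      obtain ⟨t, -, ht⟩ := this ⟨by linarith, hm⟩
      exact ⟨t, ht⟩
    · have := intermediate_value_Icc hpi hcont.continuousOn
      rw [h0, h1] at this
      obtain ⟨t, -, ht⟩ := this ⟨hm, by linarith⟩
      exact ⟨t, ht⟩
  obtain ⟨t, ht⟩ := this
  exact ⟨Real.cos t, Real.sin t, Real.cos_sq_add_sin_sq t, ht⟩

theorem exists_frame (c s : ℝ) (h : c ^ 2 + s ^ 2 = 1) :
    ∃ b : OrthonormalBasis (Fin 2) ℝ E2, b 0 = !₂[c, s] ∧ b 1 = !₂[-s, c] := by
  have hon : Orthonormal ℝ (![!₂[c, s], !₂[-s, c]] : Fin 2 → E2) := by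
    rw [orthonormal_iff_ite]
    intro i j
    fin_cases i <;> fin_cases j
    · show inner ℝ (!₂[c, s] : E2) !₂[c, s] = 1
      rw [inner_vec2]; nlinarith
    · show inner ℝ (!₂[c, s] : E2) !₂[-s, c] = 0
      rw [inner_vec2]; ring
    · show inner ℝ (!₂[-s, c] : E2) !₂[c, s] = 0
      rw [inner_vec2]; ring
    · show inner ℝ (!₂[-s, c] : E2) !₂[-s, c] = 1
      rw [inner_vec2]; nlinarith
  have hsp : ⊤ ≤ Submodule.span ℝ (Set.range (![!₂[c, s], !₂[-s, c]] : Fin 2 → E2)) := by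
    have := (basisOfOrthonormalOfCardEqFinrank hon (by simp)).span_eq
    rw [coe_basisOfOrthonormalOfCardEqFinrank] at this
    exact this.ge
  refine ⟨OrthonormalBasis.mk hon hsp, ?_, ?_⟩ <;> simp


/-- A trace-free linear map of the plane has an orthonormal frame in which its diagonal vanishes. -/
theorem exists_trace_frame (A : E2 →L[ℝ] E2) (htr : LinearMap.trace ℝ E2 A.toLinearMap = 0) :
    ∃ b : OrthonormalBasis (Fin 2) ℝ E2,
      inner ℝ (b 0) (A (b 0)) = 0 ∧ inner ℝ (b 1) (A (b 1)) = 0 := by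
  obtain ⟨c, s, hcs, hq⟩ := exists_angle (A (EuclideanSpace.single (0 : Fin 2) (1 : ℝ)) 0)
    (A (EuclideanSpace.single (1 : Fin 2) (1 : ℝ)) 0) (A (EuclideanSpace.single (0 : Fin 2) (1 : ℝ)) 1)
  obtain ⟨b, hb0, hb1⟩ := exists_frame c s hcs
  have htr' := trace_coords A
  rw [htr] at htr'
  have h0 : inner ℝ (b 0) (A (b 0)) = 0 := by
    rw [hb0, apply_coords A, inner_coords]
    simp
    nlinarith
  have h1 : inner ℝ (b 1) (A (b 1)) = 0 := by
    have := trace_frame A b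
    rw [htr, h0] at this
    linarith
  exact ⟨b, h0, h1⟩

/-- **Local patch lemma** (shape agreed with helper6, msg 169). -/
theorem patch_cover (A : E2 →L[ℝ] E2) (L M θ : ℝ) (hL : 0 < L)
    (htr : LinearMap.trace ℝ E2 A.toLinearMap = 0)
    (hdet0 : LinearMap.det A.toLinearMap ≤ 0)
    (hdetθ : -(L ^ 2 * LinearMap.det A.toLinearMap) ≤ θ) (hθ : θ < 1) (hM : ‖A‖ ≤ M) :
    ∃ b : OrthonormalBasis (Fin 2) ℝ E2, ∀ (δ η : ℝ), 0 < δ → 0 ≤ η →
      ∀ (p₀ v₀ p r : E2) (s : ℝ), |s| ≤ L → ‖r‖ ≤ η * δ →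
      ∃ i j : ℤ, (∃ x ∈ Set.Icc (0:ℝ) 1, ∃ y ∈ Set.Icc (0:ℝ) 1,
          p + s • (v₀ + A (p - p₀)) + r =
            (p₀ + (δ * (i - η)) • b 0 + (δ * (j - η)) • b 1) + x • (((1 + 2 * η) * δ) • b 0)
              + y • (((1 + 2 * η) * δ) • b 1) + s • (v₀ + A ((δ * i) • b 0 + (δ * j) • b 1))) ∧
        ‖p - (p₀ + (δ * i) • b 0 + (δ * j) • b 1)‖ ≤ 2 * (1 + L * M) / (1 - θ) * δ := by
  obtain ⟨b, hb00, hb11⟩ := exists_trace_frame A htr
  refine ⟨b, ?_⟩
  intro δ η hδ hη p₀ v₀ p r s hs hr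
  obtain ⟨α, hα⟩ : ∃ α : ℝ, α = inner ℝ (b 0) (A (b 1)) := ⟨_, rfl⟩
  obtain ⟨β, hβ⟩ : ∃ β : ℝ, β = inner ℝ (b 1) (A (b 0)) := ⟨_, rfl⟩
  have hdet : LinearMap.det A.toLinearMap = -(α * β) := by
    rw [det_frame A b, hb00, hb11, hα, hβ]; ring
  -- expansions in the frame
  have hexp : ∀ z : E2, z = inner ℝ (b 0) z • b 0 + inner ℝ (b 1) z • b 1 := by
    intro z
    have := b.sum_repr' z
    rw [Fin.sum_univ_two] at this
    exact this.symm
  have hA0 : A (b 0) = β • b 1 := by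
    have := hexp (A (b 0))
    rw [hb00, zero_smul, zero_add, ← hβ] at this
    exact this
  have hA1 : A (b 1) = α • b 0 := by
    have := hexp (A (b 1))
    rw [hb11, zero_smul, add_zero, ← hα] at this
    exact this
  have hb0n : ‖b 0‖ = 1 := b.orthonormal.1 0
  have hb1n : ‖b 1‖ = 1 := b.orthonormal.1 1
  have hM0 : 0 ≤ M := (norm_nonneg A).trans hM
  have hαM : |α| ≤ M := by
    rw [hα]
    calc |inner ℝ (b 0) (A (b 1))| ≤ ‖b 0‖ * ‖A (b 1)‖ := abs_real_inner_le_norm _ _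
      _ ≤ 1 * (‖A‖ * ‖b 1‖) := by
          rw [hb0n]
          exact mul_le_mul_of_nonneg_left (A.le_opNorm _) zero_le_one
      _ ≤ M := by rw [hb1n]; linarith
  have hβM : |β| ≤ M := by
    rw [hβ]
    calc |inner ℝ (b 1) (A (b 0))| ≤ ‖b 1‖ * ‖A (b 0)‖ := abs_real_inner_le_norm _ _
      _ ≤ 1 * (‖A‖ * ‖b 0‖) := by
          rw [hb1n]
          exact mul_le_mul_of_nonneg_left (A.le_opNorm _) zero_le_one
      _ ≤ M := by rw [hb0n]; linarith
  -- coordinates of the data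
  obtain ⟨P0, hP0⟩ : ∃ P0 : ℝ, P0 = inner ℝ (b 0) (p - p₀) := ⟨_, rfl⟩
  obtain ⟨P1, hP1⟩ : ∃ P1 : ℝ, P1 = inner ℝ (b 1) (p - p₀) := ⟨_, rfl⟩
  obtain ⟨ρ0, hρ0⟩ : ∃ ρ0 : ℝ, ρ0 = inner ℝ (b 0) r := ⟨_, rfl⟩
  obtain ⟨ρ1, hρ1⟩ : ∃ ρ1 : ℝ, ρ1 = inner ℝ (b 1) r := ⟨_, rfl⟩
  have hpw : p - p₀ = P0 • b 0 + P1 • b 1 := by rw [hP0, hP1]; exact hexp _
  have hrr : r = ρ0 • b 0 + ρ1 • b 1 := by rw [hρ0, hρ1]; exact hexp _
  have hρ0b : |ρ0| ≤ η * δ := by
    rw [hρ0]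
    calc |inner ℝ (b 0) r| ≤ ‖b 0‖ * ‖r‖ := abs_real_inner_le_norm _ _
      _ = ‖r‖ := by rw [hb0n, one_mul]
      _ ≤ η * δ := hr
  have hρ1b : |ρ1| ≤ η * δ := by
    rw [hρ1]
    calc |inner ℝ (b 1) r| ≤ ‖b 1‖ * ‖r‖ := abs_real_inner_le_norm _ _
      _ = ‖r‖ := by rw [hb1n, one_mul]
      _ ≤ η * δ := hr
  have hαβ0 : 0 ≤ α * β := by rw [hdet] at hdet0; linarith
  have hαβθ : L ^ 2 * (α * β) ≤ θ := by rw [hdet] at hdetθ; linarith
  have hs2 : s ^ 2 ≤ L ^ 2 := sq_le_sq' (by linarith [(abs_le.mp hs).1]) (abs_le.mp hs).2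
  have hsab : s ^ 2 * (α * β) ≤ θ := (mul_le_mul_of_nonneg_right hs2 hαβ0).trans hαβθ
  have hsab' : s * β * (s * α) = s ^ 2 * (α * β) := by ring
  have hk : 1 - θ ≤ 1 - s ^ 2 * (α * β) := by linarith
  have hkpos : 0 < 1 - θ := by linarith
  have hLM : 0 ≤ L * M := by positivity
  have hsα : |s * α| ≤ L * M := by
    rw [abs_mul]; exact mul_le_mul hs hαM (abs_nonneg _) hL.le
  have hsβ : |s * β| ≤ L * M := by
    rw [abs_mul]; exact mul_le_mul hs hβM (abs_nonneg _) hL.le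
  -- the pinwheel lemma
  obtain ⟨X, hX⟩ : ∃ X : ℝ, X * δ = P0 + s * α * P1 := ⟨(P0 + s * α * P1) / δ, div_mul_cancel₀ _ hδ.ne'⟩
  obtain ⟨Y, hY⟩ : ∃ Y : ℝ, Y * δ = P1 + s * β * P0 := ⟨(P1 + s * β * P0) / δ, div_mul_cancel₀ _ hδ.ne'⟩
  obtain ⟨i, j, hX0, hX1, hY0, hY1⟩ := pinwheel_cover (s * β) (s * α)
    (by rw [hsab']; exact mul_nonneg (sq_nonneg s) hαβ0) (by rw [hsab']; linarith) X Y
  obtain ⟨e1, he1⟩ : ∃ e1 : ℝ, e1 = P0 + s * α * P1 - δ * (i + s * α * j) := ⟨_, rfl⟩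
  obtain ⟨e2, he2⟩ : ∃ e2 : ℝ, e2 = P1 + s * β * P0 - δ * (j + s * β * i) := ⟨_, rfl⟩
  have he1' : e1 = δ * (X - (i + s * α * j)) := by rw [he1, ← hX]; ring
  have he2' : e2 = δ * (Y - (j + s * β * i)) := by rw [he2, ← hY]; ring
  have he10 : 0 ≤ e1 := by rw [he1']; exact mul_nonneg hδ.le hX0
  have he11 : e1 < δ := by
    rw [he1']
    have := mul_lt_mul_of_pos_left hX1 hδ
    linarith
  have he20 : 0 ≤ e2 := by rw [he2']; exact mul_nonneg hδ.le hY0
  have he21 : e2 < δ := by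
    rw [he2']
    have := mul_lt_mul_of_pos_left hY1 hδ
    linarith
  have hden : 0 < (1 + 2 * η) * δ := by positivity
  have hηδ : 0 ≤ η * δ := by positivity
  obtain ⟨x, hx⟩ : ∃ x : ℝ, x * ((1 + 2 * η) * δ) = e1 + ρ0 + η * δ :=
    ⟨(e1 + ρ0 + η * δ) / ((1 + 2 * η) * δ), div_mul_cancel₀ _ hden.ne'⟩
  obtain ⟨y, hy⟩ : ∃ y : ℝ, y * ((1 + 2 * η) * δ) = e2 + ρ1 + η * δ :=
    ⟨(e2 + ρ1 + η * δ) / ((1 + 2 * η) * δ), div_mul_cancel₀ _ hden.ne'⟩
  have hden' : (1 + 2 * η) * δ = δ + 2 * (η * δ) := by ring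
  have hx01 : x ∈ Set.Icc (0 : ℝ) 1 := by
    have h1 := abs_le.mp hρ0b
    have hN0 : 0 ≤ x * ((1 + 2 * η) * δ) := by rw [hx]; linarith [h1.1]
    have hN1 : x * ((1 + 2 * η) * δ) ≤ 1 * ((1 + 2 * η) * δ) := by
      rw [hx, one_mul, hden']; linarith [h1.2]
    exact ⟨nonneg_of_mul_nonneg_left hN0 hden, le_of_mul_le_mul_right hN1 hden⟩
  have hy01 : y ∈ Set.Icc (0 : ℝ) 1 := by
    have h1 := abs_le.mp hρ1b
    have hN0 : 0 ≤ y * ((1 + 2 * η) * δ) := by rw [hy]; linarith [h1.1]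
    have hN1 : y * ((1 + 2 * η) * δ) ≤ 1 * ((1 + 2 * η) * δ) := by
      rw [hy, one_mul, hden']; linarith [h1.2]
    exact ⟨nonneg_of_mul_nonneg_left hN0 hden, le_of_mul_le_mul_right hN1 hden⟩
  have hAw : A (p - p₀) = (P1 * α) • b 0 + (P0 * β) • b 1 := by
    rw [hpw, map_add, map_smul, map_smul, hA0, hA1]
    module
  have hAc : A ((δ * (i : ℝ)) • b 0 + (δ * (j : ℝ)) • b 1) =
      (δ * j * α) • b 0 + (δ * i * β) • b 1 := by
    rw [map_add, map_smul, map_smul, hA0, hA1]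
    module
  refine ⟨i, j, ⟨x, hx01, y, hy01, ?_⟩, ?_⟩
  · rw [hAw, hAc]
    rw [he1] at hx
    rw [he2] at hy
    linear_combination (norm := module) hpw + hrr - hx • b 0 - hy • b 1
  · obtain ⟨ξ, hξ⟩ : ∃ ξ : ℝ, ξ = P0 - δ * i := ⟨_, rfl⟩
    obtain ⟨ζ, hζ⟩ : ∃ ζ : ℝ, ζ = P1 - δ * j := ⟨_, rfl⟩
    have hξb : |ξ| * (1 - θ) ≤ (1 + L * M) * δ := by
      have e : (1 - s ^ 2 * (α * β)) * ξ = e1 - (s * α) * e2 := by rw [hξ, he1, he2]; ring
      have h1 : |(1 - s ^ 2 * (α * β)) * ξ| ≤ δ + L * M * δ := by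
        rw [e]
        calc |e1 - s * α * e2| ≤ |e1| + |s * α * e2| := abs_sub _ _
          _ ≤ δ + L * M * δ := by
              rw [abs_mul (s * α), abs_of_nonneg he10, abs_of_nonneg he20]
              have := mul_le_mul hsα he21.le he20 hLM
              linarith
      rw [abs_mul, abs_of_pos (by linarith : (0:ℝ) < 1 - s ^ 2 * (α * β))] at h1
      calc |ξ| * (1 - θ) ≤ |ξ| * (1 - s ^ 2 * (α * β)) :=
            mul_le_mul_of_nonneg_left hk (abs_nonneg ξ)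
        _ = (1 - s ^ 2 * (α * β)) * |ξ| := mul_comm _ _
        _ ≤ δ + L * M * δ := h1
        _ = (1 + L * M) * δ := by ring
    have hζb : |ζ| * (1 - θ) ≤ (1 + L * M) * δ := by
      have e : (1 - s ^ 2 * (α * β)) * ζ = e2 - (s * β) * e1 := by rw [hζ, he1, he2]; ring
      have h1 : |(1 - s ^ 2 * (α * β)) * ζ| ≤ δ + L * M * δ := by
        rw [e]
        calc |e2 - s * β * e1| ≤ |e2| + |s * β * e1| := abs_sub _ _
          _ ≤ δ + L * M * δ := by
              rw [abs_mul (s * β), abs_of_nonneg he10, abs_of_nonneg he20]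
              have := mul_le_mul hsβ he11.le he10 hLM
              linarith
      rw [abs_mul, abs_of_pos (by linarith : (0:ℝ) < 1 - s ^ 2 * (α * β))] at h1
      calc |ζ| * (1 - θ) ≤ |ζ| * (1 - s ^ 2 * (α * β)) :=
            mul_le_mul_of_nonneg_left hk (abs_nonneg ζ)
        _ = (1 - s ^ 2 * (α * β)) * |ζ| := mul_comm _ _
        _ ≤ δ + L * M * δ := h1
        _ = (1 + L * M) * δ := by ring
    have hvec : p - (p₀ + (δ * (i : ℝ)) • b 0 + (δ * (j : ℝ)) • b 1) = ξ • b 0 + ζ • b 1 := by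
      rw [hξ, hζ]
      linear_combination (norm := module) hpw
    rw [hvec]
    calc ‖ξ • b 0 + ζ • b 1‖ ≤ |ξ| + |ζ| := by
          refine (norm_add_le _ _).trans ?_
          rw [norm_smul, norm_smul, hb0n, hb1n, mul_one, mul_one, Real.norm_eq_abs,
            Real.norm_eq_abs]
      _ ≤ 2 * (1 + L * M) / (1 - θ) * δ := by
          have h1 : |ξ| ≤ (1 + L * M) * δ / (1 - θ) := by rw [le_div_iff₀ hkpos]; exact hξb
          have h2 : |ζ| ≤ (1 + L * M) * δ / (1 - θ) := by rw [le_div_iff₀ hkpos]; exact hζb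
          have h3 : 2 * (1 + L * M) / (1 - θ) * δ =
              (1 + L * M) * δ / (1 - θ) + (1 + L * M) * δ / (1 - θ) := by ring
          linarith

end Crest.Agent.Helper3
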